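import Vale.Agent.P154.D3.K1.Data
import Vale.Agent.P154.ApxLemma

set_option maxRecDepth 100000

namespace Vale.Agent.P154.D3.K1

open PolyR Cert InT OutT

/-- The quotient polynomial for `j = 1`. -/
noncomputable def S1 (u : ℝ) : ℝ :=
  (-11 / 16777216 : ℝ) * u ^ 0 + (9 / 4194304 : ℝ) * u ^ 1 + (2555 / 16777216 : ℝ) * u ^ 2 + (-3145 / 16777216 : ℝ) * u ^ 3 + (-90803 / 16777216 : ℝ) * u ^ 4 + (134481 / 16777216 : ℝ) * u ^ 5 + (513057 / 8388608 : ℝ) * u ^ 6 + (-2116553 / 16777216 : ℝ) * u ^ 7 + (-3005955 / 16777216 : ℝ) * u ^ 8 + (10162421 / 16777216 : ℝ) * u ^ 9 + (-1632969 / 4194304 : ℝ) * u ^ 10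

/-- Certificate polynomial. -/
def lpu1 : List ITm := [⟨(-53369149100035429000854492187500000000000000000000000000000000),0,0⟩,⟨37419451487949118018150329589843750000000000000000000000000000,1,0⟩,⟨2650331940372578799724578857421875000000000000000000000000000000,2,0⟩,⟨(-2177532418688734536188840866088867187500000000000000000000000000),3,0⟩,⟨(-41964184761584372766241234210014343261718750000000000000000000000),4,0⟩,⟨41483380188113416884925636191112200164794921875000000000000000000,5,0⟩,⟨211272724842989440578452543111615697310294189453125000000000000000,6,0⟩,⟨(-290878473320490403876097175639675992116947633726074218750000000000),7,0⟩,⟨(-275739842109881358592845613018725938240848479188702326171875000000),8,0⟩,⟨622226987999295782156466992073840118343310510262829947856125937500,9,0⟩,⟨(-266946484956080694737017208618928984776062427550606314290354636281),10,0⟩]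

/-- Certificate tree. -/
def tpu1 : OutT := (A (A (A (O l) (A (A (O l) (A (O l) (O l))) (A (A (A (O l) (O l)) (A (O l) (O l))) (A (A (O l) (O l)) (A (O l) (O l)))))) (A (A (A (A (O l) (O l)) (A (O l) (O l))) (A (A (O l) (O l)) (A (O l) (O l)))) (A (A (A (O l) (O l)) (A (O l) (O l))) (A (A (O l) (O l)) (A (O l) (O l)))))) (A (A (A (A (A (O l) (A (O l) (O l))) (A (A (O l) (O l)) (A (O l) (O l)))) (A (A (A (O l) (O l)) (A (A (O l) (O l)) (A (O l) (O l)))) (A (A (A (O l) (O l)) (A (O l) (O l))) (A (A (O l) (O l)) (A (O l) (A (O l) (O l))))))) (A (A (A (A (A (A (O l) (O l)) (A (O l) (O l))) (A (A (O l) (O l)) (A (O l) (O l)))) (A (A (A (O l) (O l)) (A (O l) (O l))) (A (A (A (O l) (O l)) (A (O l) (O l))) (A (A (O l) (O l)) (A (O l) (O l)))))) (A (A (A (A (A (O l) (O l)) (A (O l) (O l))) (A (A (O l) (O l)) (A (O l) (O l)))) (A (A (A (O l) (O l)) (A (O l) (O l))) (A (A (O l) (O l)) (A (O l) (O l))))) (A (A (A (A (O l) (O l)) (A (O l) (O l))) (A (A (O l) (O l)) (A (O l) (O l)))) (A (A (A (O l) (O l)) (A (O l) (O l))) (A (A (O l) (O l))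 (A (O l) (O l))))))) (A (A (A (A (A (A (O l) (O l)) (A (O l) (O l))) (A (A (O l) (O l)) (A (O l) (O l)))) (A (A (A (O l) (O l)) (A (O l) (O l))) (A (A (O l) (O l)) (O l)))) (A (A (A (O l) (O l)) (A (O l) (O l))) (A (A (O l) (O l)) (A (O l) (O l))))) (A (A (A (A (O l) (O l)) (A (O l) (O l))) (A (A (O l) (O l)) (A (O l) (O l)))) (A (A (A (O l) (O l)) (A (O l) (O l))) (A (A (O l) (O l)) (A (O l) (O l)))))))) (A (A (A (A (A (A (A (O l) (O l)) (A (O l) (O l))) (A (O l) (O l))) (A (A (O l) (O l)) (A (O l) (O l)))) (A (A (A (O l) (O l)) (A (O l) (O l))) (A (A (O l) (O l)) (A (O l) (O l))))) (A (A (A (A (O l) (O l)) (A (O l) (O l))) (A (A (O l) (O l)) (A (O l) (O l)))) (A (A (A (O l) (O l)) (A (O l) (O l))) (A (A (O l) (O l)) (A (A (O l) (O l)) (A (O l) (O l))))))) (A (A (A (A (A (A (O l) (O l)) (A (O l) (O l))) (A (A (O l) (O l)) (A (O l) (O l)))) (A (A (A (O l) (O l)) (A (O l) (O l))) (A (A (O l) (O l)) (A (O l) (O l))))) (A (A (A (A (O l) (O l)) (A (O l) (O l))) (A (A (O l) (O l)) (A (O l) (O l)))) (A (A (A (O l) (A (O l) (O l))) (A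 (A (O l) (O l)) (A (O l) (O l)))) (A (A (A (O l) (O l)) (A (O l) (O l))) (A (A (O l) (O l)) (A (O l) (O l))))))) (A (A (A (A (A (A (O l) (O l)) (A (O l) (O l))) (A (A (O l) (O l)) (A (A (O l) (O l)) (A (O l) (O l))))) (A (A (A (A (O l) (O l)) (A (O l) (O l))) (A (A (O l) (O l)) (A (O l) (O l)))) (A (A (A (O l) (O l)) (A (O l) (O l))) (A (A (O l) (O l)) (A (O l) (O l)))))) (A (A (A (A (A (O l) (A (O l) (O l))) (A (A (O l) (O l)) (A (O l) (O l)))) (A (A (A (O l) (O l)) (A (O l) (O l))) (A (A (O l) (O l)) (A (O l) (O l))))) (A (A (A (A (O l) (O l)) (A (O l) (O l))) (A (A (O l) (O l)) (A (O l) (O l)))) (A (A (A (O l) (O l)) (A (O l) (O l))) (A (A (O l) (O l)) (A (O l) (O l)))))) (A (A (A (A (A (O l) (O l)) (A (O l) (O l))) (A (A (O l) (O l)) (A (O l) (O l)))) (A (A (A (O l) (O l)) (A (O l) (O l))) (A (A (O l) (O l)) (A (O l) (O l))))) (A (A (A (A (O l) (O l)) (A (O l) (O l))) (A (A (O l) (O l)) (A (O l) (O l)))) (A (A (A (O l) (O l)) (O l)) (A (O l) (O l))))))) (A (A (A (A (A (A (O l) (O l)) (A (O l) (O l))) (A (A (O l) (O l)) (A (O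 l) (O l)))) (A (A (A (O l) (O l)) (A (O l) (O l))) (A (A (O l) (O l)) (A (O l) (O l))))) (A (A (A (O l) (O l)) (A (O l) (O l))) (A (A (O l) (O l)) (A (O l) (O l))))) (A (A (A (A (O l) (O l)) (A (O l) (O l))) (A (A (O l) (O l)) (A (O l) (O l)))) (A (A (O l) (O l)) (A (O l) (O l))))))))))

theorem hpu1 (x : ℝ) (h0 : 0 ≤ x) (h1 : x ≤ 1) : evalIL lpu1 x 0 ≤ 0 :=
  uni_le 10 65536 lpu1 (by norm_num) (by norm_num) (by decide +kernel)
    (chkOut_sound (uniPb 10 65536 lpu1) tpu1 0 32768 0 32768 (by decide +kernel)) x h0 h1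

/-- Certificate polynomial. -/
def lpl1 : List ITm := [⟨(-2146407496184110641479492187500000000000000000000000000000000),0,0⟩,⟨(-74474664317676797509193420410156250000000000000000000000000000),1,0⟩,⟨(-2650331940372578799724578857421875000000000000000000000000000000),2,0⟩,⟨2177532418688734536188840866088867187500000000000000000000000000,3,0⟩,⟨41964184761584372766241234210014343261718750000000000000000000000,4,0⟩,⟨(-41483380188113416884925636191112200164794921875000000000000000000),5,0⟩,⟨(-211272724842989440578452543111615697310294189453125000000000000000),6,0⟩,⟨290878473320490403876097175639675992116947633726074218750000000000,7,0⟩,⟨275739842109881358592845613018725938240848479188702326171875000000,8,0⟩,⟨(-622226987999295782156466992073840118343310510262829947856125937500),9,0⟩,⟨266946484956080694737017208618928984776062427550606314290354636281,10,0⟩]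

/-- Certificate tree. -/
def tpl1 : OutT := (A (A (A (A (A (O l) (O l)) (O l)) (A (O l) (O l))) (A (A (A (O l) (O l)) (A (A (O l) (O l)) (A (O l) (O l)))) (A (A (A (A (O l) (O l)) (A (O l) (O l))) (A (A (O l) (A (O l) (O l))) (A (A (O l) (O l)) (A (O l) (O l))))) (A (A (A (A (O l) (O l)) (A (O l) (O l))) (A (A (O l) (O l)) (A (O l) (O l)))) (A (A (A (O l) (O l)) (A (O l) (O l))) (A (A (O l) (O l)) (A (O l) (O l)))))))) (A (A (A (A (A (A (A (O l) (O l)) (A (O l) (O l))) (A (A (O l) (O l)) (O l))) (A (A (O l) (O l)) (A (O l) (O l)))) (A (A (A (O l) (O l)) (A (O l) (O l))) (A (A (O l) (O l)) (A (O l) (O l))))) (A (A (A (A (O l) (O l)) (A (O l) (O l))) (A (A (O l) (O l)) (A (O l) (O l)))) (A (A (A (A (O l) (O l)) (A (O l) (O l))) (A (A (O l) (O l)) (A (O l) (O l)))) (A (A (A (O l) (O l)) (A (O l) (O l))) (A (A (O l) (O l)) (A (O l) (O l))))))) (A (A (A (A (A (A (O l) (O l)) (A (O l) (O l))) (A (A (O l) (A (O l) (O l))) (A (A (O l) (O l)) (A (O l) (O l))))) (A (A (A (A (O l) (O l)) (A (O l) (O l))) (A (A (O l) (O l)) (A (O l) (O l))))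 (A (A (A (O l) (O l)) (A (O l) (O l))) (A (A (O l) (O l)) (A (O l) (A (O l) (O l))))))) (A (A (A (A (A (A (O l) (O l)) (A (O l) (O l))) (A (A (O l) (O l)) (A (O l) (O l)))) (A (A (A (O l) (O l)) (A (O l) (O l))) (A (A (O l) (O l)) (A (O l) (O l))))) (A (A (A (A (O l) (O l)) (A (O l) (O l))) (A (A (O l) (O l)) (A (O l) (O l)))) (A (A (A (A (O l) (O l)) (A (O l) (O l))) (A (A (O l) (O l)) (A (O l) (O l)))) (A (A (A (O l) (O l)) (A (O l) (O l))) (A (A (O l) (O l)) (A (O l) (O l))))))) (A (A (A (A (A (A (O l) (O l)) (A (O l) (O l))) (A (A (O l) (O l)) (A (O l) (O l)))) (A (A (A (O l) (O l)) (A (O l) (O l))) (A (A (O l) (O l)) (A (O l) (O l))))) (A (A (A (A (O l) (O l)) (A (O l) (O l))) (A (A (O l) (O l)) (A (O l) (O l)))) (A (A (A (O l) (O l)) (A (O l) (O l))) (A (A (O l) (O l)) (A (O l) (O l)))))) (A (A (A (A (O l) (O l)) (A (O l) (O l))) (A (A (O l) (O l)) (A (O l) (O l)))) (A (A (A (O l) (O l)) (A (O l) (O l))) (A (A (O l) (O l)) (A (O l) (O l)))))))) (A (A (A (A (A (A (A (O l) (O l)) (A (O l) (O l))) (A (A (O l) (O l)) (A (O l)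 (O l)))) (A (A (A (O l) (O l)) (A (O l) (O l))) (A (A (O l) (O l)) (A (O l) (O l))))) (A (A (A (A (O l) (O l)) (O l)) (A (O l) (O l))) (A (A (O l) (O l)) (A (O l) (O l))))) (A (A (A (A (O l) (O l)) (A (O l) (O l))) (A (A (O l) (O l)) (A (O l) (O l)))) (A (A (A (O l) (O l)) (A (O l) (O l))) (A (A (O l) (O l)) (A (O l) (O l)))))) (A (A (A (A (A (O l) (O l)) (A (O l) (O l))) (A (A (O l) (O l)) (A (O l) (O l)))) (A (A (A (O l) (O l)) (A (O l) (O l))) (A (A (O l) (O l)) (A (O l) (O l))))) (A (A (A (A (O l) (O l)) (A (O l) (O l))) (A (A (O l) (O l)) (A (O l) (O l)))) (A (A (A (O l) (O l)) (A (O l) (A (O l) (O l)))) (A (A (A (O l) (O l)) (A (O l) (O l))) (A (A (O l) (O l)) (A (A (O l) (O l)) (A (O l) (O l))))))))))))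

theorem hpl1 (x : ℝ) (h0 : 0 ≤ x) (h1 : x ≤ 1) : evalIL lpl1 x 0 ≤ 0 :=
  uni_le 10 65536 lpl1 (by norm_num) (by norm_num) (by decide +kernel)
    (chkOut_sound (uniPb 10 65536 lpl1) tpl1 0 32768 0 32768 (by decide +kernel)) x h0 h1

/-- Certificate polynomial. -/
def lnu1 : List ITm := [⟨(-54650008678436279296875000000000000000000000000000000000000000000),0,0⟩,⟨(-19158759161829948425292968750000000000000000000000000000000000000),1,0⟩,⟨678484976735380172729492187500000000000000000000000000000000000000,2,0⟩,⟨278724149592158020632171630859375000000000000000000000000000000000,3,0⟩,⟨(-2685707824741399857039438989440917968750000000000000000000000000000),4,0⟩,⟨(-1327468166019629340317620358115590405273437500000000000000000000000),5,0⟩,⟨3380363597487831049255240689785851156964707031250000000000000000000,6,0⟩,⟨2327027786563923231008777405117407936935581069808593750000000000000,7,0⟩,⟨(-1102959368439525434371382452074903752963393916754809304687500000000),8,0⟩,⟨(-1244453975998591564312933984147680236686621020525659895712251875000),9,0⟩,⟨(-266946484956080694737017208618928984776062427550606314290354636281),10,0⟩]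

/-- Certificate tree. -/
def tnu1 : OutT := (A (A (O l) (A (A (O l) (A (O l) (O l))) (A (A (A (O l) (O l)) (A (O l) (O l))) (A (A (O l) (O l)) (A (O l) (O l)))))) (A (A (A (A (O l) (O l)) (A (O l) (O l))) (A (A (O l) (O l)) (A (O l) (O l)))) (A (A (A (O l) (O l)) (A (O l) (A (O l) (O l)))) (A (A (A (O l) (A (O l) (O l))) (A (A (O l) (A (O l) (O l))) (A (A (O l) (O l)) (A (O l) (O l))))) (A (A (A (A (O l) (O l)) (A (O l) (O l))) (A (O l) (O l))) (A (A (O l) (O l)) (O l)))))))

theorem hnu1 (x : ℝ) (h0 : 0 ≤ x) (h1 : x ≤ 1) : evalIL lnu1 x 0 ≤ 0 :=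
  uni_le 10 65536 lnu1 (by norm_num) (by norm_num) (by decide +kernel)
    (chkOut_sound (uniPb 10 65536 lnu1) tnu1 0 32768 0 32768 (by decide +kernel)) x h0 h1

/-- Certificate polynomial. -/
def lnl1 : List ITm := [⟨(-2197921276092529296875000000000000000000000000000000000000000000),0,0⟩,⟨38131028130650520324707031250000000000000000000000000000000000000,1,0⟩,⟨(-678484976735380172729492187500000000000000000000000000000000000000),2,0⟩,⟨(-278724149592158020632171630859375000000000000000000000000000000000),3,0⟩,⟨2685707824741399857039438989440917968750000000000000000000000000000,4,0⟩,⟨1327468166019629340317620358115590405273437500000000000000000000000,5,0⟩,⟨(-3380363597487831049255240689785851156964707031250000000000000000000),6,0⟩,⟨(-2327027786563923231008777405117407936935581069808593750000000000000),7,0⟩,⟨1102959368439525434371382452074903752963393916754809304687500000000,8,0⟩,⟨1244453975998591564312933984147680236686621020525659895712251875000,9,0⟩,⟨266946484956080694737017208618928984776062427550606314290354636281,10,0⟩]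

/-- Certificate tree. -/
def tnl1 : OutT := (A (A (A (A (O l) (O l)) (A (O l) (O l))) (A (O l) (O l))) (A (A (A (O l) (A (O l) (O l))) (A (A (O l) (A (O l) (O l))) (A (A (O l) (A (O l) (O l))) (A (A (O l) (O l)) (A (O l) (O l)))))) (A (A (A (A (A (O l) (O l)) (A (O l) (O l))) (A (A (O l) (O l)) (O l))) (A (A (O l) (O l)) (A (O l) (O l)))) (A (A (A (O l) (O l)) (A (O l) (O l))) (A (A (O l) (O l)) (A (O l) (A (O l) (A (O l) (O l)))))))))

theorem hnl1 (x : ℝ) (h0 : 0 ≤ x) (h1 : x ≤ 1) : evalIL lnl1 x 0 ≤ 0 :=
  uni_le 10 65536 lnl1 (by norm_num) (by norm_num) (by decide +kernel)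
    (chkOut_sound (uniPb 10 65536 lnl1) tnl1 0 32768 0 32768 (by decide +kernel)) x h0 h1

theorem apx1 (u : ℝ) (h0 : -(834343 / 2500000 : ℝ) ≤ u) (h1 : u ≤ 2 * (834343 / 2500000 : ℝ)) :
    |((1 + u)⁻¹) ^ 1 - evalZ Ax.p1 (3 * u) / Ax.D1| ≤ Ax.e1 * |u| ^ Ax.m1 := by
  have hu : 0 < 1 + u := by norm_num at h0 ⊢; linarith
  refine apx_of_S 1 2 _ (S1 u) _ u hu ?_ ?_ ?_
  · simp only [Ax, evalZ_cons, evalZ_nil, S1]
    push_cast
    ring
  · rcases le_total 0 u with hs | hs
    · have hx := hpu1 (u / (2 * (834343 / 2500000 : ℝ))) (by positivity) (by rw [div_le_one (by norm_num)]; exact h1)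
      have e : evalIL lpu1 (u / (2 * (834343 / 2500000 : ℝ))) 0 = 39062500000000000000000000000000000000000000000000000000000000000000 * (S1 u - Ax.e1 * (1 + u) ^ 1) := by
        simp only [lpu1, evalIL, List.map_cons, List.map_nil, List.sum_cons, List.sum_nil, S1, Ax]
        push_cast
        ring
      rw [e] at hx
      have := cmul_nonpos (by norm_num) hx
      simp only [Ax] at this ⊢
      linarith
    · have hx := hnu1 (-u / (834343 / 2500000 : ℝ)) (by apply div_nonneg <;> [linarith; norm_num]) (by rw [div_le_one (by norm_num)]; linarith)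
      have e : evalIL lnu1 (-u / (834343 / 2500000 : ℝ)) 0 = 40000000000000000000000000000000000000000000000000000000000000000000000 * (S1 u - Ax.e1 * (1 + u) ^ 1) := by
        simp only [lnu1, evalIL, List.map_cons, List.map_nil, List.sum_cons, List.sum_nil, S1, Ax]
        push_cast
        ring
      rw [e] at hx
      have := cmul_nonpos (by norm_num) hx
      simp only [Ax] at this ⊢
      linarith
  · rcases le_total 0 u with hs | hs
    · have hx := hpl1 (u / (2 * (834343 / 2500000 : ℝ))) (by positivity) (by rw [div_le_one (by norm_num)]; exact h1)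
      have e : evalIL lpl1 (u / (2 * (834343 / 2500000 : ℝ))) 0 = 39062500000000000000000000000000000000000000000000000000000000000000 * (-S1 u - Ax.e1 * (1 + u) ^ 1) := by
        simp only [lpl1, evalIL, List.map_cons, List.map_nil, List.sum_cons, List.sum_nil, S1, Ax]
        push_cast
        ring
      rw [e] at hx
      have := cmul_nonpos (by norm_num) hx
      simp only [Ax] at this ⊢
      linarith
    · have hx := hnl1 (-u / (834343 / 2500000 : ℝ)) (by apply div_nonneg <;> [linarith; norm_num]) (by rw [div_le_one (by norm_num)]; linarith)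
      have e : evalIL lnl1 (-u / (834343 / 2500000 : ℝ)) 0 = 40000000000000000000000000000000000000000000000000000000000000000000000 * (-S1 u - Ax.e1 * (1 + u) ^ 1) := by
        simp only [lnl1, evalIL, List.map_cons, List.map_nil, List.sum_cons, List.sum_nil, S1, Ax]
        push_cast
        ring
      rw [e] at hx
      have := cmul_nonpos (by norm_num) hx
      simp only [Ax] at this ⊢
      linarith

/-- The quotient polynomial for `j = 2`. -/
noncomputable def S2 (u : ℝ) : ℝ :=
  (-35 / 4194304 : ℝ) * u ^ 0 + (209 / 8388608 : ℝ) * u ^ 1 + (32645 / 16777216 : ℝ) * u ^ 2 + (-15851 / 16777216 : ℝ) * u ^ 3 + (-1182329 / 16777216 : ℝ) * u ^ 4 + (735821 / 16777216 : ℝ) * u ^ 5 + (14473077 / 16777216 : ℝ) * u ^ 6 + (-7658313 / 8388608 : ℝ) * u ^ 7 + (-62132487 / 16777216 : ℝ) * u ^ 8 + (94136417 / 16777216 : ℝ) * u ^ 9 + (17605467 / 8388608 : ℝ) * u ^ 10 + (-76361263 / 16777216 : ℝ) * u ^ 11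

/-- Certificate polynomial. -/
def lpu2 : List ITm := [⟨(-3338936949148774147033691406250000000000000000000000000000000000000000),0,0⟩,⟨966446573147550225257873535156250000000000000000000000000000000000000,1,0⟩,⟨168553785392303103115409612655639648437500000000000000000000000000000000,2,0⟩,⟨(-54874509330103547111493349075317382812500000000000000000000000000000000),3,0⟩,⟨(-2732039283117258783759194751400947570800781250000000000000000000000000000),4,0⟩,⟨1134894233884258836775561846944191753387451171875000000000000000000000000,5,0⟩,⟨14899740256211293694847103719958179995500405883789062500000000000000000000,6,0⟩,⟨(-10524841067766622552705107736327008897094084502885742187500000000000000000),7,0⟩,⟨(-28497436181303871954690469990224438014395293678983580638671875000000000000),8,0⟩,⟨28819028069667505142437188939819905203541177517928326120061610937500000000,9,0⟩,⟨7195050138214924962644162480691105919369059452723980516823140805707500000,10,0⟩,⟨(-10415113232528729155717866569914180565616112117050695393836565126358494041),11,0⟩]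

/-- Certificate tree. -/
def tpu2 : OutT := (A (A (A (O l) (A (A (O l) (A (O l) (O l))) (A (A (A (O l) (O l)) (A (O l) (O l))) (A (A (O l) (O l)) (A (O l) (O l)))))) (A (A (A (A (O l) (O l)) (A (O l) (O l))) (A (A (O l) (O l)) (O l))) (A (A (O l) (A (O l) (O l))) (A (A (O l) (O l)) (A (O l) (O l)))))) (A (A (A (A (A (O l) (O l)) (A (A (O l) (O l)) (A (O l) (O l)))) (A (A (A (O l) (O l)) (A (O l) (O l))) (A (A (A (O l) (O l)) (A (O l) (O l))) (A (A (O l) (O l)) (A (O l) (O l)))))) (A (A (A (A (A (O l) (A (O l) (O l))) (A (A (O l) (O l)) (A (O l) (O l)))) (A (A (A (O l) (O l)) (A (O l) (O l))) (A (A (O l) (A (O l) (O l))) (A (A (O l) (O l)) (A (O l) (O l)))))) (A (A (A (A (A (O l) (O l)) (A (O l) (O l))) (A (A (O l) (O l)) (A (O l) (O l)))) (A (A (A (O l) (O l)) (A (O l) (O l))) (A (A (O l) (O l)) (A (O l) (O l))))) (A (A (A (A (O l) (O l)) (A (O l) (O l))) (A (A (O l) (O l)) (A (O l) (O l)))) (A (A (A (O l) (O l)) (A (O l) (O l))) (A (A (O l) (O l)) (A (O l) (O l))))))) (A (A (A (A (A (A (O l) (O l)) (A (O l) (O l))) (A (O l) (O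 l))) (A (A (O l) (O l)) (A (O l) (O l)))) (A (A (A (O l) (O l)) (A (O l) (O l))) (A (A (O l) (O l)) (A (O l) (O l))))) (A (A (A (A (O l) (O l)) (A (O l) (O l))) (A (A (O l) (O l)) (O l))) (A (A (O l) (O l)) (A (O l) (O l))))))) (A (A (A (A (A (A (O l) (O l)) (A (O l) (O l))) (A (A (O l) (O l)) (A (O l) (O l)))) (A (A (A (O l) (O l)) (A (O l) (O l))) (A (A (O l) (O l)) (A (O l) (O l))))) (A (A (A (A (O l) (O l)) (A (O l) (O l))) (A (A (O l) (O l)) (A (O l) (O l)))) (A (A (A (O l) (O l)) (A (O l) (O l))) (A (A (O l) (O l)) (A (O l) (O l)))))) (A (A (A (A (A (O l) (O l)) (A (O l) (O l))) (A (A (O l) (A (O l) (O l))) (A (A (O l) (O l)) (A (O l) (O l))))) (A (A (A (A (O l) (O l)) (A (O l) (O l))) (A (A (O l) (O l)) (A (O l) (O l)))) (A (A (A (O l) (O l)) (A (O l) (O l))) (A (A (O l) (A (O l) (O l))) (A (A (O l) (O l)) (A (O l) (O l))))))) (A (A (A (A (A (A (O l) (O l)) (A (O l) (O l))) (A (A (O l) (O l)) (A (O l) (O l)))) (A (A (A (O l) (O l)) (A (O l) (A (O l) (O l)))) (A (A (A (O l) (O l)) (A (O l) (O l))) (A (A (O l) (O l)) (A (O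 l) (O l)))))) (A (A (A (A (A (O l) (O l)) (A (O l) (O l))) (A (A (O l) (O l)) (A (O l) (O l)))) (A (A (A (A (O l) (O l)) (A (O l) (O l))) (A (A (O l) (O l)) (A (O l) (O l)))) (A (A (A (O l) (O l)) (A (O l) (O l))) (A (A (O l) (O l)) (A (O l) (O l)))))) (A (A (A (A (A (O l) (O l)) (A (O l) (O l))) (A (A (O l) (O l)) (A (O l) (O l)))) (A (A (A (O l) (O l)) (A (O l) (O l))) (A (O l) (O l)))) (A (A (A (O l) (O l)) (A (O l) (O l))) (A (A (O l) (O l)) (A (O l) (O l))))))) (A (A (A (A (A (A (O l) (O l)) (A (O l) (O l))) (A (A (O l) (O l)) (O l))) (A (A (O l) (O l)) (A (O l) (O l)))) (A (A (A (O l) (O l)) (A (O l) (O l))) (A (A (O l) (O l)) (A (O l) (O l))))) (A (A (A (O l) (O l)) (A (O l) (O l))) (A (A (O l) (O l)) (A (O l) (O l))))))))))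

theorem hpu2 (x : ℝ) (h0 : 0 ≤ x) (h1 : x ≤ 1) : evalIL lpu2 x 0 ≤ 0 :=
  uni_le 11 65536 lpu2 (by norm_num) (by norm_num) (by decide +kernel)
    (chkOut_sound (uniPb 11 65536 lpu2) tpu2 0 32768 0 32768 (by decide +kernel)) x h0 h1

/-- Certificate polynomial. -/
def lpl2 : List ITm := [⟨(-79307937994599342346191406250000000000000000000000000000000000000000),0,0⟩,⟨(-5529628483345732092857360839843750000000000000000000000000000000000000),1,0⟩,⟨(-170076688946103295776993036270141601562500000000000000000000000000000000),2,0⟩,⟨54874509330103547111493349075317382812500000000000000000000000000000000,3,0⟩,⟨2732039283117258783759194751400947570800781250000000000000000000000000000,4,0⟩,⟨(-1134894233884258836775561846944191753387451171875000000000000000000000000),5,0⟩,⟨(-14899740256211293694847103719958179995500405883789062500000000000000000000),6,0⟩,⟨10524841067766622552705107736327008897094084502885742187500000000000000000,7,0⟩,⟨28497436181303871954690469990224438014395293678983580638671875000000000000,8,0⟩,⟨(-28819028069667505142437188939819905203541177517928326120061610937500000000),9,0⟩,⟨(-7195050138214924962644162480691105919369059452723980516823140805707500000),10,0⟩,⟨10415113232528729155717866569914180565616112117050695393836565126358494041,11,0⟩]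

/-- Certificate tree. -/
def tpl2 : OutT := (A (A (A (A (A (A (O l) (O l)) (O l)) (O l)) (A (O l) (O l))) (A (A (A (O l) (O l)) (A (O l) (A (O l) (O l)))) (A (A (A (A (O l) (O l)) (A (O l) (O l))) (A (A (O l) (A (O l) (O l))) (A (A (O l) (O l)) (A (O l) (O l))))) (A (A (A (A (A (O l) (O l)) (A (O l) (O l))) (A (A (O l) (O l)) (A (O l) (O l)))) (A (A (A (O l) (O l)) (A (O l) (O l))) (A (A (O l) (O l)) (A (O l) (O l))))) (A (A (A (O l) (O l)) (A (O l) (O l))) (A (A (O l) (O l)) (A (O l) (O l)))))))) (A (A (A (A (A (A (A (O l) (O l)) (O l)) (A (O l) (O l))) (A (A (O l) (O l)) (A (O l) (O l)))) (A (A (A (O l) (O l)) (A (O l) (O l))) (A (A (O l) (O l)) (A (O l) (O l))))) (A (A (A (A (O l) (O l)) (A (O l) (O l))) (A (A (O l) (O l)) (A (O l) (O l)))) (A (A (A (O l) (O l)) (A (O l) (O l))) (A (A (A (O l) (O l)) (A (O l) (O l))) (A (A (O l) (O l)) (A (O l) (O l))))))) (A (A (A (A (A (A (O l) (O l)) (A (O l) (O l))) (A (A (O l) (O l)) (A (O l) (O l)))) (A (A (A (O l) (A (O l) (O l))) (A (A (O l) (O l)) (A (O l) (O l)))) (A (A (A (O l) (O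 l)) (A (O l) (O l))) (A (A (O l) (O l)) (A (O l) (O l)))))) (A (A (A (A (A (O l) (A (O l) (O l))) (A (A (O l) (O l)) (A (O l) (O l)))) (A (A (A (O l) (O l)) (A (O l) (O l))) (A (A (O l) (O l)) (A (O l) (O l))))) (A (A (A (A (O l) (O l)) (A (O l) (O l))) (A (A (A (O l) (O l)) (A (O l) (O l))) (A (A (O l) (O l)) (A (O l) (O l))))) (A (A (A (A (O l) (O l)) (A (O l) (O l))) (A (A (O l) (O l)) (A (O l) (O l)))) (A (A (A (O l) (O l)) (A (O l) (O l))) (A (A (O l) (O l)) (A (O l) (O l))))))) (A (A (A (A (A (A (O l) (O l)) (A (O l) (O l))) (A (A (O l) (O l)) (A (O l) (O l)))) (A (A (A (O l) (O l)) (A (O l) (O l))) (A (A (O l) (O l)) (A (O l) (O l))))) (A (A (A (A (O l) (O l)) (A (O l) (O l))) (A (A (O l) (O l)) (A (O l) (O l)))) (A (A (A (O l) (O l)) (A (O l) (O l))) (A (A (O l) (O l)) (A (O l) (O l)))))) (A (A (A (A (A (O l) (O l)) (O l)) (A (O l) (O l))) (A (A (O l) (O l)) (A (O l) (O l)))) (A (A (A (O l) (O l)) (A (O l) (O l))) (A (A (O l) (O l)) (A (O l) (O l)))))))) (A (A (A (A (A (A (A (O l) (O l)) (A (O l) (O l))) (A (A (O l) (O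 l)) (O l))) (A (A (O l) (O l)) (A (O l) (O l)))) (A (A (A (O l) (O l)) (A (O l) (O l))) (A (A (O l) (O l)) (A (O l) (O l))))) (A (A (A (A (O l) (O l)) (A (O l) (O l))) (A (A (O l) (O l)) (A (O l) (O l)))) (A (A (A (O l) (O l)) (A (O l) (O l))) (A (A (O l) (O l)) (A (O l) (O l)))))) (A (A (A (A (A (O l) (O l)) (A (O l) (O l))) (A (A (O l) (O l)) (A (O l) (O l)))) (A (A (A (O l) (O l)) (A (O l) (O l))) (A (A (O l) (O l)) (A (O l) (O l))))) (A (A (A (A (O l) (O l)) (A (O l) (O l))) (A (A (O l) (O l)) (A (O l) (O l)))) (A (A (A (O l) (O l)) (A (O l) (O l))) (A (A (O l) (A (O l) (O l))) (A (A (O l) (O l)) (A (A (O l) (O l)) (A (O l) (A (O l) (O l)))))))))))))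

theorem hpl2 (x : ℝ) (h0 : 0 ≤ x) (h1 : x ≤ 1) : evalIL lpl2 x 0 ≤ 0 :=
  uni_le 11 65536 lpl2 (by norm_num) (by norm_num) (by decide +kernel)
    (chkOut_sound (uniPb 11 65536 lpl2) tpl2 0 32768 0 32768 (by decide +kernel)) x h0 h1

/-- Certificate polynomial. -/
def lnu2 : List ITm := [⟨(-6838142871856689453125000000000000000000000000000000000000000000000000000),0,0⟩,⟨(-989641290903091430664062500000000000000000000000000000000000000000000000),1,0⟩,⟨86299538120859188795089721679687500000000000000000000000000000000000000000,2,0⟩,⟨14047874388506508060542297363281250000000000000000000000000000000000000000,3,0⟩,⟨(-349701028239009124321176928179321289062500000000000000000000000000000000000),4,0⟩,⟨(-72633230968592565553635958204428272216796875000000000000000000000000000000),5,0⟩,⟨476791688198761398235107319038661759856012988281250000000000000000000000000,6,0⟩,⟨168397457084265960843281723781232142353505352046171875000000000000000000000,7,0⟩,⟨(-227979489450430975637523759921795504115162349431868645109375000000000000000),8,0⟩,⟨(-115276112278670020569748755759279620814164710071713304480246443750000000000),9,0⟩,⟨14390100276429849925288324961382211838738118905447961033646281611415000000,10,0⟩,⟨10415113232528729155717866569914180565616112117050695393836565126358494041,11,0⟩]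

/-- Certificate tree. -/
def tnu2 : OutT := (A (A (O l) (A (A (O l) (A (O l) (O l))) (A (A (A (O l) (O l)) (A (O l) (A (O l) (O l)))) (A (A (A (O l) (O l)) (O l)) (A (O l) (O l)))))) (A (A (A (A (O l) (O l)) (A (O l) (O l))) (A (A (O l) (O l)) (A (O l) (O l)))) (A (A (A (O l) (O l)) (A (A (O l) (O l)) (A (O l) (O l)))) (A (A (A (A (O l) (O l)) (A (O l) (O l))) (A (A (A (O l) (O l)) (A (O l) (O l))) (A (A (O l) (A (O l) (O l))) (A (A (O l) (O l)) (A (O l) (O l)))))) (A (A (A (A (A (O l) (O l)) (A (O l) (O l))) (A (O l) (O l))) (A (A (O l) (O l)) (O l))) (A (A (O l) (O l)) (O l)))))))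

theorem hnu2 (x : ℝ) (h0 : 0 ≤ x) (h1 : x ≤ 1) : evalIL lnu2 x 0 ≤ 0 :=
  uni_le 11 65536 lnu2 (by norm_num) (by norm_num) (by decide +kernel)
    (chkOut_sound (uniPb 11 65536 lnu2) tnu2 0 32768 0 32768 (by decide +kernel)) x h0 h1

/-- Certificate polynomial. -/
def lnl2 : List ITm := [⟨(-162422657012939453125000000000000000000000000000000000000000000000000000),0,0⟩,⟨5662339566946029663085937500000000000000000000000000000000000000000000000,1,0⟩,⟨(-87079264740404887437820434570312500000000000000000000000000000000000000000),2,0⟩,⟨(-14047874388506508060542297363281250000000000000000000000000000000000000000),3,0⟩,⟨349701028239009124321176928179321289062500000000000000000000000000000000000,4,0⟩,⟨72633230968592565553635958204428272216796875000000000000000000000000000000,5,0⟩,⟨(-476791688198761398235107319038661759856012988281250000000000000000000000000),6,0⟩,⟨(-168397457084265960843281723781232142353505352046171875000000000000000000000),7,0⟩,⟨227979489450430975637523759921795504115162349431868645109375000000000000000,8,0⟩,⟨115276112278670020569748755759279620814164710071713304480246443750000000000,9,0⟩,⟨(-14390100276429849925288324961382211838738118905447961033646281611415000000),10,0⟩,⟨(-10415113232528729155717866569914180565616112117050695393836565126358494041),11,0⟩]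

/-- Certificate tree. -/
def tnl2 : OutT := (A (A (A (A (A (O l) (O l)) (A (O l) (O l))) (A (O l) (O l))) (A (O l) (O l))) (A (A (A (O l) (A (O l) (O l))) (A (A (O l) (A (O l) (O l))) (A (A (A (O l) (O l)) (A (O l) (O l))) (A (A (A (O l) (O l)) (A (O l) (O l))) (A (A (O l) (O l)) (A (O l) (O l))))))) (A (A (A (A (A (A (O l) (O l)) (A (O l) (O l))) (A (O l) (O l))) (A (A (O l) (O l)) (A (O l) (O l)))) (A (A (O l) (O l)) (A (O l) (O l)))) (A (A (A (O l) (O l)) (A (O l) (O l))) (A (A (O l) (O l)) (A (O l) (A (O l) (A (O l) (A (O l) (O l))))))))))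

theorem hnl2 (x : ℝ) (h0 : 0 ≤ x) (h1 : x ≤ 1) : evalIL lnl2 x 0 ≤ 0 :=
  uni_le 11 65536 lnl2 (by norm_num) (by norm_num) (by decide +kernel)
    (chkOut_sound (uniPb 11 65536 lnl2) tnl2 0 32768 0 32768 (by decide +kernel)) x h0 h1

theorem apx2 (u : ℝ) (h0 : -(834343 / 2500000 : ℝ) ≤ u) (h1 : u ≤ 2 * (834343 / 2500000 : ℝ)) :
    |((1 + u)⁻¹) ^ 2 - evalZ Ax.p2 (3 * u) / Ax.D2| ≤ Ax.e2 * |u| ^ Ax.m2 := by
  have hu : 0 < 1 + u := by norm_num at h0 ⊢; linarith
  refine apx_of_S 2 2 _ (S2 u) _ u hu ?_ ?_ ?_
  · simp only [Ax, evalZ_cons, evalZ_nil, S2]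
    push_cast
    ring
  · rcases le_total 0 u with hs | hs
    · have hx := hpu2 (u / (2 * (834343 / 2500000 : ℝ))) (by positivity) (by rw [div_le_one (by norm_num)]; exact h1)
      have e : evalIL lpu2 (u / (2 * (834343 / 2500000 : ℝ))) 0 = 195312500000000000000000000000000000000000000000000000000000000000000000000 * (S2 u - Ax.e2 * (1 + u) ^ 2) := by
        simp only [lpu2, evalIL, List.map_cons, List.map_nil, List.sum_cons, List.sum_nil, S2, Ax]
        push_cast
        ring
      rw [e] at hx
      have := cmul_nonpos (by norm_num) hx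
      simp only [Ax] at this ⊢
      linarith
    · have hx := hnu2 (-u / (834343 / 2500000 : ℝ)) (by apply div_nonneg <;> [linarith; norm_num]) (by rw [div_le_one (by norm_num)]; linarith)
      have e : evalIL lnu2 (-u / (834343 / 2500000 : ℝ)) 0 = 400000000000000000000000000000000000000000000000000000000000000000000000000000 * (S2 u - Ax.e2 * (1 + u) ^ 2) := by
        simp only [lnu2, evalIL, List.map_cons, List.map_nil, List.sum_cons, List.sum_nil, S2, Ax]
        push_cast
        ring
      rw [e] at hx
      have := cmul_nonpos (by norm_num) hx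
      simp only [Ax] at this ⊢
      linarith
  · rcases le_total 0 u with hs | hs
    · have hx := hpl2 (u / (2 * (834343 / 2500000 : ℝ))) (by positivity) (by rw [div_le_one (by norm_num)]; exact h1)
      have e : evalIL lpl2 (u / (2 * (834343 / 2500000 : ℝ))) 0 = 195312500000000000000000000000000000000000000000000000000000000000000000000 * (-S2 u - Ax.e2 * (1 + u) ^ 2) := by
        simp only [lpl2, evalIL, List.map_cons, List.map_nil, List.sum_cons, List.sum_nil, S2, Ax]
        push_cast
        ring
      rw [e] at hx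
      have := cmul_nonpos (by norm_num) hx
      simp only [Ax] at this ⊢
      linarith
    · have hx := hnl2 (-u / (834343 / 2500000 : ℝ)) (by apply div_nonneg <;> [linarith; norm_num]) (by rw [div_le_one (by norm_num)]; linarith)
      have e : evalIL lnl2 (-u / (834343 / 2500000 : ℝ)) 0 = 400000000000000000000000000000000000000000000000000000000000000000000000000000 * (-S2 u - Ax.e2 * (1 + u) ^ 2) := by
        simp only [lnl2, evalIL, List.map_cons, List.map_nil, List.sum_cons, List.sum_nil, S2, Ax]
        push_cast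
        ring
      rw [e] at hx
      have := cmul_nonpos (by norm_num) hx
      simp only [Ax] at this ⊢
      linarith

/-- The quotient polynomial for `j = 3`. -/
noncomputable def S3 (u : ℝ) : ℝ :=
  (-2159 / 16777216 : ℝ) * u ^ 0 + (-16383 / 4194304 : ℝ) * u ^ 1 + (14937 / 1048576 : ℝ) * u ^ 2 + (4286895 / 16777216 : ℝ) * u ^ 3 + (-1266819 / 4194304 : ℝ) * u ^ 4 + (-70277267 / 16777216 : ℝ) * u ^ 5 + (29951717 / 8388608 : ℝ) * u ^ 6 + (201437891 / 8388608 : ℝ) * u ^ 7 + (-42910793 / 2097152 : ℝ) * u ^ 8 + (-87538685 / 2097152 : ℝ) * u ^ 9 + (368442213 / 16777216 : ℝ) * u ^ 10 + (230247839 / 8388608 : ℝ) * u ^ 11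

/-- Certificate polynomial. -/
def lpu3 : List ITm := [⟨(-34911863622255623340606689453125000000000000000000000000000000000000000),0,0⟩,⟨(-299349541259289253503084182739257812500000000000000000000000000000000000),1,0⟩,⟨589907777835585931548848748207092285156250000000000000000000000000000000,2,0⟩,⟨7413746978812897529227788187563419342041015625000000000000000000000000000,3,0⟩,⟨(-5854545177525583243214095798673629760742187500000000000000000000000000000),4,0⟩,⟨(-54196105500824592780843152745511542856216430664062500000000000000000000000),5,0⟩,⟨30834687297493695428549492888750240122421060180664062500000000000000000000,6,0⟩,⟨138418329715767462573673421766222976167784498416105957031250000000000000000,7,0⟩,⟨(-78725165790105322489101595873555351690786011333045328070312500000000000000),8,0⟩,⟨(-107196764040712609123403930484772057485155910417580885527068468750000000000),9,0⟩,⟨37643991431324469025240250030251978467111037561375001580293236868773125000,10,0⟩,⟨31404107534602254987850754529990978419109012360529417485906735716600250473,11,0⟩]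

/-- Certificate tree. -/
def tpu3 : OutT := (A (A (A (O l) (A (O l) (O l))) (A (A (A (O l) (A (O l) (O l))) (A (A (A (O l) (O l)) (A (A (O l) (O l)) (A (O l) (O l)))) (A (A (A (O l) (O l)) (O l)) (A (O l) (O l))))) (A (A (A (A (O l) (O l)) (O l)) (A (O l) (O l))) (A (A (O l) (O l)) (A (O l) (O l)))))) (A (A (A (A (A (O l) (O l)) (A (O l) (O l))) (A (A (O l) (O l)) (A (O l) (O l)))) (A (A (A (O l) (O l)) (A (O l) (O l))) (A (A (A (O l) (O l)) (A (O l) (O l))) (A (A (O l) (O l)) (A (O l) (A (O l) (O l))))))) (A (A (A (A (A (A (O l) (O l)) (A (O l) (O l))) (A (A (O l) (O l)) (A (O l) (A (O l) (O l))))) (A (A (A (A (O l) (O l)) (A (O l) (O l))) (A (A (O l) (O l)) (A (O l) (O l)))) (A (A (A (A (O l) (O l)) (A (O l) (O l))) (A (A (O l) (O l)) (A (O l) (O l)))) (A (A (A (O l) (O l)) (A (O l) (O l))) (A (A (O l) (O l)) (A (O l) (O l))))))) (A (A (A (A (A (A (O l) (O l)) (A (O l) (O l))) (A (A (O l) (O l)) (A (O l) (O l)))) (A (A (A (O l) (O l)) (O l)) (A (O l) (O l)))) (A (A (A (O l) (O l)) (A (O l) (O l))) (A (A (O l) (O l)) (A (O l)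 (O l))))) (A (A (A (A (O l) (O l)) (O l)) (A (O l) (O l))) (A (A (O l) (O l)) (A (O l) (O l)))))) (A (A (A (A (A (O l) (O l)) (A (O l) (O l))) (A (A (O l) (O l)) (O l))) (A (A (O l) (O l)) (A (O l) (O l)))) (A (A (A (O l) (O l)) (A (O l) (O l))) (A (A (A (O l) (O l)) (A (O l) (O l))) (A (A (O l) (O l)) (A (A (O l) (O l)) (A (O l) (A (O l) (A (O l) (O l))))))))))))

theorem hpu3 (x : ℝ) (h0 : 0 ≤ x) (h1 : x ≤ 1) : evalIL lpu3 x 0 ≤ 0 :=
  uni_le 11 65536 lpu3 (by norm_num) (by norm_num) (by decide +kernel)
    (chkOut_sound (uniPb 11 65536 lpu3) tpu3 0 32768 0 32768 (by decide +kernel)) x h0 h1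

/-- Certificate polynomial. -/
def lpl3 : List ITm := [⟨(-9777795639820396900177001953125000000000000000000000000000000000000000),0,0⟩,⟨209861930752813350409269332885742187500000000000000000000000000000000000,1,0⟩,⟨(-649638466965829631080850958824157714843750000000000000000000000000000000),2,0⟩,⟨(-7427036547442496174294089339673519134521484375000000000000000000000000000),3,0⟩,⟨5854545177525583243214095798673629760742187500000000000000000000000000000,4,0⟩,⟨54196105500824592780843152745511542856216430664062500000000000000000000000,5,0⟩,⟨(-30834687297493695428549492888750240122421060180664062500000000000000000000),6,0⟩,⟨(-138418329715767462573673421766222976167784498416105957031250000000000000000),7,0⟩,⟨78725165790105322489101595873555351690786011333045328070312500000000000000,8,0⟩,⟨107196764040712609123403930484772057485155910417580885527068468750000000000,9,0⟩,⟨(-37643991431324469025240250030251978467111037561375001580293236868773125000),10,0⟩,⟨(-31404107534602254987850754529990978419109012360529417485906735716600250473),11,0⟩]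

/-- Certificate tree. -/
def tpl3 : OutT := (A (A (A (A (A (O l) (A (O l) (O l))) (A (A (O l) (O l)) (A (O l) (O l)))) (A (A (O l) (O l)) (O l))) (A (A (O l) (O l)) (A (A (O l) (O l)) (A (O l) (A (O l) (O l)))))) (A (A (A (A (A (O l) (A (O l) (O l))) (A (A (O l) (O l)) (A (O l) (A (O l) (O l))))) (A (A (A (A (O l) (O l)) (A (O l) (O l))) (A (A (A (O l) (O l)) (A (O l) (O l))) (A (A (O l) (O l)) (A (O l) (O l))))) (A (A (A (A (O l) (O l)) (A (O l) (O l))) (A (A (O l) (O l)) (A (O l) (O l)))) (A (A (A (O l) (O l)) (O l)) (A (O l) (O l)))))) (A (A (A (A (A (O l) (O l)) (A (O l) (O l))) (A (A (O l) (O l)) (O l))) (A (A (O l) (O l)) (A (O l) (O l)))) (A (A (A (O l) (O l)) (A (O l) (O l))) (A (A (O l) (O l)) (A (O l) (O l)))))) (A (A (A (A (A (O l) (O l)) (A (O l) (O l))) (A (A (O l) (O l)) (A (O l) (O l)))) (A (A (A (O l) (O l)) (A (O l) (O l))) (A (A (O l) (O l)) (A (O l) (O l))))) (A (A (A (A (O l) (A (O l) (O l))) (A (A (O l) (O l)) (A (O l) (O l)))) (A (A (A (O l) (O l)) (A (O l) (O l))) (A (A (A (O l) (O l)) (A (O l) (O l))) (A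 (A (O l) (O l)) (A (O l) (O l)))))) (A (A (A (A (A (A (O l) (O l)) (A (O l) (O l))) (A (A (O l) (O l)) (A (O l) (O l)))) (A (A (A (O l) (O l)) (A (A (O l) (O l)) (A (O l) (O l)))) (A (A (A (O l) (O l)) (A (O l) (O l))) (A (A (O l) (O l)) (A (O l) (O l)))))) (A (A (A (A (A (O l) (O l)) (O l)) (A (O l) (O l))) (A (A (O l) (O l)) (A (O l) (O l)))) (A (A (A (O l) (O l)) (O l)) (A (O l) (O l))))) (A (A (A (A (O l) (O l)) (A (O l) (O l))) (A (O l) (O l))) (A (A (O l) (O l)) (A (O l) (O l)))))))))

theorem hpl3 (x : ℝ) (h0 : 0 ≤ x) (h1 : x ≤ 1) : evalIL lpl3 x 0 ≤ 0 :=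
  uni_le 11 65536 lpl3 (by norm_num) (by norm_num) (by decide +kernel)
    (chkOut_sound (uniPb 11 65536 lpl3) tpl3 0 32768 0 32768 (by decide +kernel)) x h0 h1

/-- Certificate polynomial. -/
def lnu3 : List ITm := [⟨(-71499496698379516601562500000000000000000000000000000000000000000000000000),0,0⟩,⟨306533930249512195587158203125000000000000000000000000000000000000000000000,1,0⟩,⟨302032782251819996953010559082031250000000000000000000000000000000000000000,2,0⟩,⟨(-1897919226576101767482313776016235351562500000000000000000000000000000000000),3,0⟩,⟨(-749381782723274655131404262230224609375000000000000000000000000000000000000),4,0⟩,⟨3468550752052773937973961775712738742797851562500000000000000000000000000000,5,0⟩,⟨986709993519798253713583772440007683917473925781250000000000000000000000000,6,0⟩,⟨(-2214693275452279401178774748259567618684551974657695312500000000000000000000),7,0⟩,⟨(-629801326320842579912812766988442813526288090664362624562500000000000000000),8,0⟩,⟨428787056162850436493615721939088229940623641670323542108273875000000000000,9,0⟩,⟨75287982862648938050480500060503956934222075122750003160586473737546250000,10,0⟩,⟨(-31404107534602254987850754529990978419109012360529417485906735716600250473),11,0⟩]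

/-- Certificate tree. -/
def tnu3 : OutT := (A (A (A (O l) (A (O l) (O l))) (A (A (A (O l) (A (O l) (O l))) (A (A (O l) (O l)) (A (O l) (O l)))) (A (A (O l) (O l)) (O l)))) (A (A (A (O l) (O l)) (A (O l) (A (O l) (O l)))) (A (A (A (O l) (O l)) (A (A (O l) (O l)) (A (O l) (O l)))) (A (A (A (A (O l) (O l)) (A (O l) (A (O l) (O l)))) (A (A (A (O l) (O l)) (A (A (O l) (O l)) (A (O l) (O l)))) (A (A (A (O l) (O l)) (A (O l) (O l))) (A (O l) (O l))))) (A (A (A (A (O l) (O l)) (O l)) (A (O l) (O l))) (A (O l) (O l)))))))

theorem hnu3 (x : ℝ) (h0 : 0 ≤ x) (h1 : x ≤ 1) : evalIL lnu3 x 0 ≤ 0 :=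
  uni_le 11 65536 lnu3 (by norm_num) (by norm_num) (by decide +kernel)
    (chkOut_sound (uniPb 11 65536 lnu3) tnu3 0 32768 0 32768 (by decide +kernel)) x h0 h1

/-- Certificate polynomial. -/
def lnl3 : List ITm := [⟨(-20024925470352172851562500000000000000000000000000000000000000000000000000),0,0⟩,⟨(-214898617090880870819091796875000000000000000000000000000000000000000000000),1,0⟩,⟨(-332614895086504771113395690917968750000000000000000000000000000000000000000),2,0⟩,⟨1901321356145279020619286870956420898437500000000000000000000000000000000000,3,0⟩,⟨749381782723274655131404262230224609375000000000000000000000000000000000000,4,0⟩,⟨(-3468550752052773937973961775712738742797851562500000000000000000000000000000),5,0⟩,⟨(-986709993519798253713583772440007683917473925781250000000000000000000000000),6,0⟩,⟨2214693275452279401178774748259567618684551974657695312500000000000000000000,7,0⟩,⟨629801326320842579912812766988442813526288090664362624562500000000000000000,8,0⟩,⟨(-428787056162850436493615721939088229940623641670323542108273875000000000000),9,0⟩,⟨(-75287982862648938050480500060503956934222075122750003160586473737546250000),10,0⟩,⟨31404107534602254987850754529990978419109012360529417485906735716600250473,11,0⟩]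

/-- Certificate tree. -/
def tnl3 : OutT := (A (A (A (O l) (O l)) (A (O l) (A (O l) (O l)))) (A (A (A (O l) (A (O l) (A (O l) (O l)))) (A (A (A (O l) (O l)) (A (A (O l) (O l)) (A (O l) (A (O l) (O l))))) (A (A (A (A (O l) (O l)) (A (O l) (O l))) (A (O l) (O l))) (A (A (O l) (O l)) (A (O l) (O l)))))) (A (A (A (A (O l) (O l)) (A (O l) (O l))) (A (A (O l) (O l)) (O l))) (A (A (O l) (O l)) (A (A (O l) (O l)) (A (O l) (A (O l) (A (O l) (A (O l) (O l))))))))))

theorem hnl3 (x : ℝ) (h0 : 0 ≤ x) (h1 : x ≤ 1) : evalIL lnl3 x 0 ≤ 0 :=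
  uni_le 11 65536 lnl3 (by norm_num) (by norm_num) (by decide +kernel)
    (chkOut_sound (uniPb 11 65536 lnl3) tnl3 0 32768 0 32768 (by decide +kernel)) x h0 h1

theorem apx3 (u : ℝ) (h0 : -(834343 / 2500000 : ℝ) ≤ u) (h1 : u ≤ 2 * (834343 / 2500000 : ℝ)) :
    |((1 + u)⁻¹) ^ 3 - evalZ Ax.p3 (3 * u) / Ax.D3| ≤ Ax.e3 * |u| ^ Ax.m3 := by
  have hu : 0 < 1 + u := by norm_num at h0 ⊢; linarith
  refine apx_of_S 3 2 _ (S3 u) _ u hu ?_ ?_ ?_
  · simp only [Ax, evalZ_cons, evalZ_nil, S3]
    push_cast
    ring
  · rcases le_total 0 u with hs | hs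
    · have hx := hpu3 (u / (2 * (834343 / 2500000 : ℝ))) (by positivity) (by rw [div_le_one (by norm_num)]; exact h1)
      have e : evalIL lpu3 (u / (2 * (834343 / 2500000 : ℝ))) 0 = 97656250000000000000000000000000000000000000000000000000000000000000000000 * (S3 u - Ax.e3 * (1 + u) ^ 3) := by
        simp only [lpu3, evalIL, List.map_cons, List.map_nil, List.sum_cons, List.sum_nil, S3, Ax]
        push_cast
        ring
      rw [e] at hx
      have := cmul_nonpos (by norm_num) hx
      simp only [Ax] at this ⊢
      linarith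
    · have hx := hnu3 (-u / (834343 / 2500000 : ℝ)) (by apply div_nonneg <;> [linarith; norm_num]) (by rw [div_le_one (by norm_num)]; linarith)
      have e : evalIL lnu3 (-u / (834343 / 2500000 : ℝ)) 0 = 200000000000000000000000000000000000000000000000000000000000000000000000000000 * (S3 u - Ax.e3 * (1 + u) ^ 3) := by
        simp only [lnu3, evalIL, List.map_cons, List.map_nil, List.sum_cons, List.sum_nil, S3, Ax]
        push_cast
        ring
      rw [e] at hx
      have := cmul_nonpos (by norm_num) hx
      simp only [Ax] at this ⊢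
      linarith
  · rcases le_total 0 u with hs | hs
    · have hx := hpl3 (u / (2 * (834343 / 2500000 : ℝ))) (by positivity) (by rw [div_le_one (by norm_num)]; exact h1)
      have e : evalIL lpl3 (u / (2 * (834343 / 2500000 : ℝ))) 0 = 97656250000000000000000000000000000000000000000000000000000000000000000000 * (-S3 u - Ax.e3 * (1 + u) ^ 3) := by
        simp only [lpl3, evalIL, List.map_cons, List.map_nil, List.sum_cons, List.sum_nil, S3, Ax]
        push_cast
        ring
      rw [e] at hx
      have := cmul_nonpos (by norm_num) hx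
      simp only [Ax] at this ⊢
      linarith
    · have hx := hnl3 (-u / (834343 / 2500000 : ℝ)) (by apply div_nonneg <;> [linarith; norm_num]) (by rw [div_le_one (by norm_num)]; linarith)
      have e : evalIL lnl3 (-u / (834343 / 2500000 : ℝ)) 0 = 200000000000000000000000000000000000000000000000000000000000000000000000000000 * (-S3 u - Ax.e3 * (1 + u) ^ 3) := by
        simp only [lnl3, evalIL, List.map_cons, List.map_nil, List.sum_cons, List.sum_nil, S3, Ax]
        push_cast
        ring
      rw [e] at hx
      have := cmul_nonpos (by norm_num) hx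
      simp only [Ax] at this ⊢
      linarith

/-- The quotient polynomial for `j = 4`. -/
noncomputable def S4 (u : ℝ) : ℝ :=
  (33117 / 16777216 : ℝ) * u ^ 0 + (-743569 / 16777216 : ℝ) * u ^ 1 + (-7707193 / 16777216 : ℝ) * u ^ 2 + (23010413 / 16777216 : ℝ) * u ^ 3 + (50161797 / 4194304 : ℝ) * u ^ 4 + (-11920267 / 1048576 : ℝ) * u ^ 5 + (-1532207215 / 16777216 : ℝ) * u ^ 6 + (599771873 / 16777216 : ℝ) * u ^ 7 + (3927033601 / 16777216 : ℝ) * u ^ 8 + (357006819 / 16777216 : ℝ) * u ^ 9 + (-1764147645 / 8388608 : ℝ) * u ^ 10 + (-53501245 / 524288 : ℝ) * u ^ 11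

/-- Certificate polynomial. -/
def lpu4 : List ITm := [⟨(-2132700274160015396773815155029296875000000000000000000000000000000000),0,0⟩,⟨(-48238963534477079520002007484436035156250000000000000000000000000000000),1,0⟩,⟨(-261978461387397135522041935473680496215820312500000000000000000000000000),2,0⟩,⟨492469783305304335182605867739766836166381835937500000000000000000000000,3,0⟩,⟨2896853594948037765126343881703820545226335525512695312500000000000000000,4,0⟩,⟨(-1838523538287275360648053846056024467849731445312500000000000000000000000),5,0⟩,⟨(-9858602252562159364819563179953571244462385845184326171875000000000000000),6,0⟩,⟨2575838030615271900988500863246432449735414689042831420898437500000000000,7,0⟩,⟨11257233818993660389518834286129322894908427693151835839855957031250000000,8,0⟩,⟨683090419846743954478825841299221027660168389003343093706618330078125000,9,0⟩,⟨(-4506104111363811159021091365152573231975501601075108893653398520290703125),10,0⟩,⟨(-1459435066589355673959202927888419560098858475721644184135669837686581343),11,0⟩]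

/-- Certificate tree. -/
def tpu4 : OutT := (A (A (A (A (O l) (O l)) (O l)) (A (A (O l) (O l)) (A (A (O l) (A (O l) (O l))) (A (A (O l) (A (O l) (O l))) (A (A (O l) (O l)) (A (A (O l) (O l)) (A (O l) (O l)))))))) (A (A (A (A (A (A (A (O l) (O l)) (O l)) (A (O l) (O l))) (A (A (O l) (O l)) (O l))) (A (A (O l) (O l)) (A (O l) (O l)))) (A (A (A (O l) (O l)) (O l)) (A (O l) (O l)))) (A (A (A (A (O l) (O l)) (A (O l) (O l))) (A (A (O l) (O l)) (A (O l) (A (O l) (O l))))) (A (A (A (A (O l) (O l)) (A (O l) (O l))) (A (A (A (O l) (O l)) (A (O l) (O l))) (A (A (A (O l) (O l)) (A (O l) (O l))) (A (A (O l) (O l)) (A (O l) (O l)))))) (A (A (A (A (A (O l) (O l)) (A (O l) (O l))) (A (A (O l) (O l)) (O l))) (A (A (O l) (O l)) (A (O l) (O l)))) (A (A (O l) (O l)) (A (O l) (O l))))))))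

theorem hpu4 (x : ℝ) (h0 : 0 ≤ x) (h1 : x ≤ 1) : evalIL lpu4 x 0 ≤ 0 :=
  uni_le 11 65536 lpu4 (by norm_num) (by norm_num) (by decide +kernel)
    (chkOut_sound (uniPb 11 65536 lpu4) tpu4 0 32768 0 32768 (by decide +kernel)) x h0 h1

/-- Certificate polynomial. -/
def lpl4 : List ITm := [⟨(-6951858040338265709578990936279296875000000000000000000000000000000000),0,0⟩,⟨23984123093538073590025305747985839843750000000000000000000000000000000,1,0⟩,⟨237694233781779887892480473965406417846679687500000000000000000000000000,2,0⟩,⟨(-503275850138986207843401173595339059829711914062500000000000000000000000),3,0⟩,⟨(-2898656788192080692062629069278511684387922286987304687500000000000000000),4,0⟩,⟨1838523538287275360648053846056024467849731445312500000000000000000000000,5,0⟩,⟨9858602252562159364819563179953571244462385845184326171875000000000000000,6,0⟩,⟨(-2575838030615271900988500863246432449735414689042831420898437500000000000),7,0⟩,⟨(-11257233818993660389518834286129322894908427693151835839855957031250000000),8,0⟩,⟨(-683090419846743954478825841299221027660168389003343093706618330078125000),9,0⟩,⟨4506104111363811159021091365152573231975501601075108893653398520290703125,10,0⟩,⟨1459435066589355673959202927888419560098858475721644184135669837686581343,11,0⟩]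

/-- Certificate tree. -/
def tpl4 : OutT := (A (A (A (A (O l) (O l)) (A (A (O l) (A (O l) (O l))) (A (A (O l) (O l)) (A (O l) (O l))))) (A (A (A (O l) (O l)) (A (O l) (O l))) (A (O l) (O l)))) (A (A (A (A (O l) (O l)) (A (O l) (O l))) (A (A (A (O l) (O l)) (A (O l) (O l))) (A (A (A (O l) (O l)) (A (O l) (O l))) (A (A (O l) (A (O l) (O l))) (A (A (O l) (O l)) (A (O l) (A (O l) (O l)))))))) (A (A (A (A (A (A (A (O l) (O l)) (A (O l) (O l))) (A (A (O l) (O l)) (A (O l) (O l)))) (A (A (A (O l) (O l)) (O l)) (A (O l) (O l)))) (A (A (A (O l) (O l)) (A (O l) (O l))) (A (O l) (O l)))) (A (A (A (O l) (O l)) (A (O l) (O l))) (A (A (O l) (O l)) (O l)))) (A (A (A (O l) (O l)) (A (O l) (O l))) (A (A (O l) (O l)) (A (A (O l) (O l)) (A (O l) (A (O l) (A (O l) (A (O l) (O l)))))))))))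

theorem hpl4 (x : ℝ) (h0 : 0 ≤ x) (h1 : x ≤ 1) : evalIL lpl4 x 0 ≤ 0 :=
  uni_le 11 65536 lpl4 (by norm_num) (by norm_num) (by decide +kernel)
    (chkOut_sound (uniPb 11 65536 lpl4) tpl4 0 32768 0 32768 (by decide +kernel)) x h0 h1

/-- Certificate polynomial. -/
def lnu4 : List ITm := [⟨(-4367770161479711532592773437500000000000000000000000000000000000000000000),0,0⟩,⟨49396698659304529428482055664062500000000000000000000000000000000000000000,1,0⟩,⟨(-134132972230347333387285470962524414062500000000000000000000000000000000000),2,0⟩,⟨(-126072264526157909806747102141380310058593750000000000000000000000000000000),3,0⟩,⟨370797260153348833936172016858089029788970947265625000000000000000000000000,4,0⟩,⟨117665506450385623081475446147585565942382812500000000000000000000000000000,5,0⟩,⟨(-315475272081989099674226021758514279822796347045898437500000000000000000000),6,0⟩,⟨(-41213408489844350415816013811942919195766635024685302734375000000000000000),7,0⟩,⟨90057870551949283116150674289034583159267421545214686718847656250000000000,8,0⟩,⟨(-2732361679386975817915303365196884110640673556013372374826473320312500000),9,0⟩,⟨(-9012208222727622318042182730305146463951003202150217787306797040581406250),10,0⟩,⟨1459435066589355673959202927888419560098858475721644184135669837686581343,11,0⟩]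

/-- Certificate tree. -/
def tnu4 : OutT := (A (A (A (A (O l) (O l)) (A (A (O l) (O l)) (A (O l) (O l)))) (A (A (O l) (O l)) (A (O l) (O l)))) (A (A (A (O l) (O l)) (A (O l) (O l))) (A (A (A (O l) (O l)) (A (A (O l) (O l)) (A (O l) (A (O l) (O l))))) (A (A (A (A (O l) (A (O l) (O l))) (A (A (O l) (O l)) (A (O l) (O l)))) (A (A (A (O l) (O l)) (A (O l) (O l))) (A (A (O l) (O l)) (O l)))) (A (A (A (O l) (O l)) (O l)) (A (O l) (O l)))))))

theorem hnu4 (x : ℝ) (h0 : 0 ≤ x) (h1 : x ≤ 1) : evalIL lnu4 x 0 ≤ 0 :=
  uni_le 11 65536 lnu4 (by norm_num) (by norm_num) (by decide +kernel)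
    (chkOut_sound (uniPb 11 65536 lnu4) tnu4 0 32768 0 32768 (by decide +kernel)) x h0 h1

/-- Certificate polynomial. -/
def lnl4 : List ITm := [⟨(-14237405266612768173217773437500000000000000000000000000000000000000000000),0,0⟩,⟨(-24559742047782987356185913085937500000000000000000000000000000000000000000),1,0⟩,⟨121699447696271302600950002670288085937500000000000000000000000000000000000,2,0⟩,⟨128838617635580469207910700440406799316406250000000000000000000000000000000,3,0⟩,⟨(-371028068888586328584016520867649495601654052734375000000000000000000000000),4,0⟩,⟨(-117665506450385623081475446147585565942382812500000000000000000000000000000),5,0⟩,⟨315475272081989099674226021758514279822796347045898437500000000000000000000,6,0⟩,⟨41213408489844350415816013811942919195766635024685302734375000000000000000,7,0⟩,⟨(-90057870551949283116150674289034583159267421545214686718847656250000000000),8,0⟩,⟨2732361679386975817915303365196884110640673556013372374826473320312500000,9,0⟩,⟨9012208222727622318042182730305146463951003202150217787306797040581406250,10,0⟩,⟨(-1459435066589355673959202927888419560098858475721644184135669837686581343),11,0⟩]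

/-- Certificate tree. -/
def tnl4 : OutT := (A (A (O l) (A (O l) (A (O l) (O l)))) (A (A (A (A (O l) (O l)) (A (A (O l) (O l)) (A (A (O l) (O l)) (A (O l) (O l))))) (A (A (A (A (O l) (O l)) (A (O l) (O l))) (A (O l) (O l))) (A (A (O l) (O l)) (O l)))) (A (A (A (O l) (O l)) (A (O l) (O l))) (A (A (O l) (O l)) (A (A (O l) (O l)) (A (O l) (A (O l) (A (O l) (A (O l) (O l))))))))))

theorem hnl4 (x : ℝ) (h0 : 0 ≤ x) (h1 : x ≤ 1) : evalIL lnl4 x 0 ≤ 0 :=
  uni_le 11 65536 lnl4 (by norm_num) (by norm_num) (by decide +kernel)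
    (chkOut_sound (uniPb 11 65536 lnl4) tnl4 0 32768 0 32768 (by decide +kernel)) x h0 h1

theorem apx4 (u : ℝ) (h0 : -(834343 / 2500000 : ℝ) ≤ u) (h1 : u ≤ 2 * (834343 / 2500000 : ℝ)) :
    |((1 + u)⁻¹) ^ 4 - evalZ Ax.p4 (3 * u) / Ax.D4| ≤ Ax.e4 * |u| ^ Ax.m4 := by
  have hu : 0 < 1 + u := by norm_num at h0 ⊢; linarith
  refine apx_of_S 4 2 _ (S4 u) _ u hu ?_ ?_ ?_
  · simp only [Ax, evalZ_cons, evalZ_nil, S4]
    push_cast
    ring
  · rcases le_total 0 u with hs | hs
    · have hx := hpu4 (u / (2 * (834343 / 2500000 : ℝ))) (by positivity) (by rw [div_le_one (by norm_num)]; exact h1)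
      have e : evalIL lpu4 (u / (2 * (834343 / 2500000 : ℝ))) 0 = 1220703125000000000000000000000000000000000000000000000000000000000000000 * (S4 u - Ax.e4 * (1 + u) ^ 4) := by
        simp only [lpu4, evalIL, List.map_cons, List.map_nil, List.sum_cons, List.sum_nil, S4, Ax]
        push_cast
        ring
      rw [e] at hx
      have := cmul_nonpos (by norm_num) hx
      simp only [Ax] at this ⊢
      linarith
    · have hx := hnu4 (-u / (834343 / 2500000 : ℝ)) (by apply div_nonneg <;> [linarith; norm_num]) (by rw [div_le_one (by norm_num)]; linarith)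
      have e : evalIL lnu4 (-u / (834343 / 2500000 : ℝ)) 0 = 2500000000000000000000000000000000000000000000000000000000000000000000000000 * (S4 u - Ax.e4 * (1 + u) ^ 4) := by
        simp only [lnu4, evalIL, List.map_cons, List.map_nil, List.sum_cons, List.sum_nil, S4, Ax]
        push_cast
        ring
      rw [e] at hx
      have := cmul_nonpos (by norm_num) hx
      simp only [Ax] at this ⊢
      linarith
  · rcases le_total 0 u with hs | hs
    · have hx := hpl4 (u / (2 * (834343 / 2500000 : ℝ))) (by positivity) (by rw [div_le_one (by norm_num)]; exact h1)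
      have e : evalIL lpl4 (u / (2 * (834343 / 2500000 : ℝ))) 0 = 1220703125000000000000000000000000000000000000000000000000000000000000000 * (-S4 u - Ax.e4 * (1 + u) ^ 4) := by
        simp only [lpl4, evalIL, List.map_cons, List.map_nil, List.sum_cons, List.sum_nil, S4, Ax]
        push_cast
        ring
      rw [e] at hx
      have := cmul_nonpos (by norm_num) hx
      simp only [Ax] at this ⊢
      linarith
    · have hx := hnl4 (-u / (834343 / 2500000 : ℝ)) (by apply div_nonneg <;> [linarith; norm_num]) (by rw [div_le_one (by norm_num)]; linarith)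
      have e : evalIL lnl4 (-u / (834343 / 2500000 : ℝ)) 0 = 2500000000000000000000000000000000000000000000000000000000000000000000000000 * (-S4 u - Ax.e4 * (1 + u) ^ 4) := by
        simp only [lnl4, evalIL, List.map_cons, List.map_nil, List.sum_cons, List.sum_nil, S4, Ax]
        push_cast
        ring
      rw [e] at hx
      have := cmul_nonpos (by norm_num) hx
      simp only [Ax] at this ⊢
      linarith

/-- The quotient polynomial for `j = 5`. -/
noncomputable def S5 (u : ℝ) : ℝ :=
  (108825 / 16777216 : ℝ) * u ^ 0 + (-325705 / 2097152 : ℝ) * u ^ 1 + (-1809413 / 1048576 : ℝ) * u ^ 2 + (61000099 / 16777216 : ℝ) * u ^ 3 + (387694163 / 8388608 : ℝ) * u ^ 4 + (-37473995 / 8388608 : ℝ) * u ^ 5 + (-5998621857 / 16777216 : ℝ) * u ^ 6 + (-2673803681 / 16777216 : ℝ) * u ^ 7 + (15767864343 / 16777216 : ℝ) * u ^ 8 + (3461170099 / 4194304 : ℝ) * u ^ 9 + (-11295073125 / 16777216 : ℝ) * u ^ 10 + (-273771223 / 262144 : ℝ) * u ^ 11 + (-350283013 / 1048576 : ℝ) * u ^ 12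

/-- Certificate polynomial. -/
def lpu5 : List ITm := [⟨(-100290534987834689673036336898803710937500000000000000000000000000000000000000),0,0⟩,⟨(-2246817118854835371166700497269630432128906250000000000000000000000000000000000),1,0⟩,⟨(-12618560725113971677255904069170355796813964843750000000000000000000000000000000),2,0⟩,⟨15905556338639953991417348312097601592540740966796875000000000000000000000000000,3,0⟩,⟨139779626512366976022127297634067182661965489387512207031250000000000000000000000,4,0⟩,⟨(-9057345897045202943286522377312961927135474979877471923828125000000000000000000),5,0⟩,⟨(-482457809661280078694544169018140251286432216882705688476562500000000000000000000),6,0⟩,⟨(-143539683960782050204589227770022250906312492075303459167480468750000000000000000),7,0⟩,⟨565001963855503097460463765418085895445079912346039592825775146484375000000000000,8,0⟩,⟨331127027588639187554444041380254859071673188590183697160067752441406250000000000,9,0⟩,⟨(-180316453355571432769145543890631924110725716755052032404978300056945800781250000),10,0⟩,⟨(-186701880988589303689007722004036275466760860332423262235140289439837738805000000),11,0⟩,⟨(-39861588024359864706710227539312402182898540253101855683799876762913333775371813),12,0⟩]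

/-- Certificate tree. -/
def tpu5 : OutT := (A (A (A (A (O l) (O l)) (O l)) (A (A (O l) (O l)) (A (A (O l) (A (O l) (O l))) (A (A (O l) (A (O l) (O l))) (A (A (O l) (O l)) (A (A (O l) (O l)) (A (O l) (O l)))))))) (A (A (A (A (A (A (O l) (O l)) (A (O l) (O l))) (A (A (O l) (O l)) (O l))) (A (A (O l) (O l)) (A (O l) (O l)))) (A (A (O l) (O l)) (A (O l) (O l)))) (A (A (A (O l) (A (O l) (O l))) (A (A (O l) (O l)) (A (O l) (A (O l) (O l))))) (A (A (A (A (O l) (O l)) (A (O l) (O l))) (A (A (A (O l) (O l)) (A (O l) (O l))) (A (A (A (O l) (O l)) (A (O l) (O l))) (A (A (O l) (O l)) (A (O l) (O l)))))) (A (A (A (A (A (O l) (O l)) (A (O l) (O l))) (A (A (O l) (O l)) (O l))) (A (A (O l) (O l)) (A (O l) (O l)))) (A (A (O l) (O l)) (A (O l) (O l))))))))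

theorem hpu5 (x : ℝ) (h0 : 0 ≤ x) (h1 : x ≤ 1) : evalIL lpu5 x 0 ≤ 0 :=
  uni_le 12 65536 lpu5 (by norm_num) (by norm_num) (by decide +kernel)
    (chkOut_sound (uniPb 12 65536 lpu5) tpu5 0 32768 0 32768 (by decide +kernel)) x h0 h1

/-- Certificate polynomial. -/
def lpl5 : List ITm := [⟨(-298242056828712520655244588851928710937500000000000000000000000000000000000000),0,0⟩,⟨916765605838861574738984927535057067871093750000000000000000000000000000000000,1,0⟩,⟨10843010053875113076883280882611870765686035156250000000000000000000000000000000,2,0⟩,⟨(-17090690957594708392385904749971814453601837158203125000000000000000000000000000),3,0⟩,⟨(-140175150021720002682594220947685296414420008659362792968750000000000000000000000),4,0⟩,⟨9004545533626941771610689705592309465925209224224090576171875000000000000000000,5,0⟩,⟨482457809661280078694544169018140251286432216882705688476562500000000000000000000,6,0⟩,⟨143539683960782050204589227770022250906312492075303459167480468750000000000000000,7,0⟩,⟨(-565001963855503097460463765418085895445079912346039592825775146484375000000000000),8,0⟩,⟨(-331127027588639187554444041380254859071673188590183697160067752441406250000000000),9,0⟩,⟨180316453355571432769145543890631924110725716755052032404978300056945800781250000,10,0⟩,⟨186701880988589303689007722004036275466760860332423262235140289439837738805000000,11,0⟩,⟨39861588024359864706710227539312402182898540253101855683799876762913333775371813,12,0⟩]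

/-- Certificate tree. -/
def tpl5 : OutT := (A (A (A (A (O l) (O l)) (A (A (O l) (A (O l) (O l))) (A (A (O l) (O l)) (A (O l) (O l))))) (A (A (A (O l) (O l)) (O l)) (A (O l) (O l)))) (A (A (A (O l) (A (O l) (O l))) (A (A (A (O l) (O l)) (A (O l) (O l))) (A (A (A (O l) (O l)) (A (O l) (O l))) (A (A (O l) (A (O l) (O l))) (A (A (O l) (O l)) (A (O l) (A (O l) (O l)))))))) (A (A (A (A (A (A (A (O l) (O l)) (A (O l) (O l))) (A (A (O l) (O l)) (A (O l) (O l)))) (A (A (O l) (O l)) (A (O l) (O l)))) (A (A (A (O l) (O l)) (O l)) (A (O l) (O l)))) (A (A (A (O l) (O l)) (A (O l) (O l))) (A (O l) (O l)))) (A (A (A (O l) (O l)) (A (O l) (O l))) (A (A (O l) (O l)) (A (A (O l) (O l)) (A (O l) (A (O l) (A (O l) (A (O l) (O l)))))))))))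

theorem hpl5 (x : ℝ) (h0 : 0 ≤ x) (h1 : x ≤ 1) : evalIL lpl5 x 0 ≤ 0 :=
  uni_le 12 65536 lpl5 (by norm_num) (by norm_num) (by decide +kernel)
    (chkOut_sound (uniPb 12 65536 lpl5) tpl5 0 32768 0 32768 (by decide +kernel)) x h0 h1

/-- Certificate polynomial. -/
def lnu5 : List ITm := [⟨(-410790031310170888900756835937500000000000000000000000000000000000000000000000000),0,0⟩,⟨4601481459414702840149402618408203125000000000000000000000000000000000000000000000,1,0⟩,⟨(-12921406182516706997510045766830444335937500000000000000000000000000000000000000000),2,0⟩,⟨(-8143644845383656443605682335793972015380859375000000000000000000000000000000000000),3,0⟩,⟨35783584387165945861664588194321198761463165283203125000000000000000000000000000000,4,0⟩,⟨1159340274821785976740674864296059126673340797424316406250000000000000000000000000,5,0⟩,⟨(-30877299818321925036450826817160976082331661880493164062500000000000000000000000000),6,0⟩,⟨4593269886745025606546855288640712029001999746409710693359375000000000000000000000,7,0⟩,⟨9040031421688049559367420246689374327121278597536633485212402343750000000000000000,8,0⟩,⟨(-2649016220709113500435552331042038872573385508721469577280542019531250000000000000),9,0⟩,⟨(-721265813422285731076582175562527696442902867020208129619913200227783203125000000),10,0⟩,⟨373403761977178607378015444008072550933521720664846524470280578879675477610000000,11,0⟩,⟨(-39861588024359864706710227539312402182898540253101855683799876762913333775371813),12,0⟩]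

/-- Certificate tree. -/
def tnu5 : OutT := (A (A (A (A (O l) (O l)) (A (A (O l) (O l)) (A (O l) (O l)))) (A (A (O l) (O l)) (A (O l) (O l)))) (A (A (A (O l) (O l)) (A (O l) (A (O l) (O l)))) (A (A (A (O l) (O l)) (A (A (O l) (O l)) (A (A (O l) (O l)) (A (O l) (O l))))) (A (A (A (A (O l) (A (O l) (O l))) (A (A (O l) (O l)) (A (A (O l) (O l)) (A (O l) (O l))))) (A (A (A (A (O l) (O l)) (A (O l) (O l))) (A (O l) (O l))) (A (A (O l) (O l)) (A (O l) (O l))))) (A (A (A (O l) (O l)) (A (O l) (O l))) (A (O l) (O l)))))))

theorem hnu5 (x : ℝ) (h0 : 0 ≤ x) (h1 : x ≤ 1) : evalIL lnu5 x 0 ≤ 0 :=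
  uni_le 12 65536 lnu5 (by norm_num) (by norm_num) (by decide +kernel)
    (chkOut_sound (uniPb 12 65536 lnu5) tnu5 0 32768 0 32768 (by decide +kernel)) x h0 h1

/-- Certificate polynomial. -/
def lnl5 : List ITm := [⟨(-1221599464770406484603881835937500000000000000000000000000000000000000000000000000),0,0⟩,⟨(-1877535960757988505065441131591796875000000000000000000000000000000000000000000000),1,0⟩,⟨11103242295168115790728479623794555664062500000000000000000000000000000000000000000,2,0⟩,⟨8750433770288490696901583231985569000244140625000000000000000000000000000000000000,3,0⟩,⟨(-35884838405560320686744120562607435882091522216796875000000000000000000000000000000),4,0⟩,⟨(-1152581828304248546766168282315815611638426780700683593750000000000000000000000000),5,0⟩,⟨30877299818321925036450826817160976082331661880493164062500000000000000000000000000,6,0⟩,⟨(-4593269886745025606546855288640712029001999746409710693359375000000000000000000000),7,0⟩,⟨(-9040031421688049559367420246689374327121278597536633485212402343750000000000000000),8,0⟩,⟨2649016220709113500435552331042038872573385508721469577280542019531250000000000000,9,0⟩,⟨721265813422285731076582175562527696442902867020208129619913200227783203125000000,10,0⟩,⟨(-373403761977178607378015444008072550933521720664846524470280578879675477610000000),11,0⟩,⟨39861588024359864706710227539312402182898540253101855683799876762913333775371813,12,0⟩]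

/-- Certificate tree. -/
def tnl5 : OutT := (A (A (O l) (A (O l) (A (O l) (O l)))) (A (A (A (A (O l) (O l)) (A (A (O l) (O l)) (A (A (O l) (O l)) (A (O l) (O l))))) (A (A (A (A (O l) (O l)) (A (O l) (O l))) (A (A (O l) (O l)) (O l))) (A (A (O l) (O l)) (A (O l) (O l))))) (A (A (A (O l) (O l)) (A (O l) (O l))) (A (A (O l) (O l)) (A (A (O l) (O l)) (A (O l) (A (O l) (A (O l) (A (O l) (O l))))))))))

theorem hnl5 (x : ℝ) (h0 : 0 ≤ x) (h1 : x ≤ 1) : evalIL lnl5 x 0 ≤ 0 :=
  uni_le 12 65536 lnl5 (by norm_num) (by norm_num) (by decide +kernel)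
    (chkOut_sound (uniPb 12 65536 lnl5) tnl5 0 32768 0 32768 (by decide +kernel)) x h0 h1

theorem apx5 (u : ℝ) (h0 : -(834343 / 2500000 : ℝ) ≤ u) (h1 : u ≤ 2 * (834343 / 2500000 : ℝ)) :
    |((1 + u)⁻¹) ^ 5 - evalZ Ax.p5 (3 * u) / Ax.D5| ≤ Ax.e5 * |u| ^ Ax.m5 := by
  have hu : 0 < 1 + u := by norm_num at h0 ⊢; linarith
  refine apx_of_S 5 2 _ (S5 u) _ u hu ?_ ?_ ?_
  · simp only [Ax, evalZ_cons, evalZ_nil, S5]
    push_cast
    ring
  · rcases le_total 0 u with hs | hs
    · have hx := hpu5 (u / (2 * (834343 / 2500000 : ℝ))) (by positivity) (by rw [div_le_one (by norm_num)]; exact h1)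
      have e : evalIL lpu5 (u / (2 * (834343 / 2500000 : ℝ))) 0 = 15258789062500000000000000000000000000000000000000000000000000000000000000000000 * (S5 u - Ax.e5 * (1 + u) ^ 5) := by
        simp only [lpu5, evalIL, List.map_cons, List.map_nil, List.sum_cons, List.sum_nil, S5, Ax]
        push_cast
        ring
      rw [e] at hx
      have := cmul_nonpos (by norm_num) hx
      simp only [Ax] at this ⊢
      linarith
    · have hx := hnu5 (-u / (834343 / 2500000 : ℝ)) (by apply div_nonneg <;> [linarith; norm_num]) (by rw [div_le_one (by norm_num)]; linarith)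
      have e : evalIL lnu5 (-u / (834343 / 2500000 : ℝ)) 0 = 62500000000000000000000000000000000000000000000000000000000000000000000000000000000 * (S5 u - Ax.e5 * (1 + u) ^ 5) := by
        simp only [lnu5, evalIL, List.map_cons, List.map_nil, List.sum_cons, List.sum_nil, S5, Ax]
        push_cast
        ring
      rw [e] at hx
      have := cmul_nonpos (by norm_num) hx
      simp only [Ax] at this ⊢
      linarith
  · rcases le_total 0 u with hs | hs
    · have hx := hpl5 (u / (2 * (834343 / 2500000 : ℝ))) (by positivity) (by rw [div_le_one (by norm_num)]; exact h1)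
      have e : evalIL lpl5 (u / (2 * (834343 / 2500000 : ℝ))) 0 = 15258789062500000000000000000000000000000000000000000000000000000000000000000000 * (-S5 u - Ax.e5 * (1 + u) ^ 5) := by
        simp only [lpl5, evalIL, List.map_cons, List.map_nil, List.sum_cons, List.sum_nil, S5, Ax]
        push_cast
        ring
      rw [e] at hx
      have := cmul_nonpos (by norm_num) hx
      simp only [Ax] at this ⊢
      linarith
    · have hx := hnl5 (-u / (834343 / 2500000 : ℝ)) (by apply div_nonneg <;> [linarith; norm_num]) (by rw [div_le_one (by norm_num)]; linarith)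
      have e : evalIL lnl5 (-u / (834343 / 2500000 : ℝ)) 0 = 62500000000000000000000000000000000000000000000000000000000000000000000000000000000 * (-S5 u - Ax.e5 * (1 + u) ^ 5) := by
        simp only [lnl5, evalIL, List.map_cons, List.map_nil, List.sum_cons, List.sum_nil, S5, Ax]
        push_cast
        ring
      rw [e] at hx
      have := cmul_nonpos (by norm_num) hx
      simp only [Ax] at this ⊢
      linarith

theorem hAx : Ax.OK (-(834343 / 2500000 : ℝ)) (2 * (834343 / 2500000 : ℝ)) where
  e10 := by simp only [Ax]; norm_num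
  e20 := by simp only [Ax]; norm_num
  e30 := by simp only [Ax]; norm_num
  e40 := by simp only [Ax]; norm_num
  e50 := by simp only [Ax]; norm_num
  h1 := fun u a b => by simpa using apx1 u a b
  h2 := apx2
  h3 := apx3
  h4 := apx4
  h5 := apx5

end Vale.Agent.P154.D3.K1
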