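import Vale.Agent.P154.D3.K1.Data
import Vale.Agent.P154.Check2

namespace Vale.Agent.P154.D3.K1

open Cert

/-- Chart (0, 0). -/
def P00 : Pb := chartPb false false Nd w G []

/-- Chart (0, 1). -/
def P01 : Pb := chartPb false true Nd w G []

/-- Chart (1, 0). -/
def P10 : Pb := chartPb true false Nd w G []

/-- Chart (1, 1). -/
def P11 : Pb := chartPb true true Nd w G []

/-- The offset. -/
def KK : ℕ := 1128430269653696552505663664688505519051893948117725342710709407999638941941219040912833546632301522012495604549678634617312701794930960696933850145274509219899605219518447018369658381698338332600334225533767288503097470829739413943739519714331064178097205003926859545229038622328927117691927971265095131106901145206539640038505022502031780376472027866138952425537536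

end Vale.Agent.P154.D3.K1
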