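import Vale.Agent.P154.D3.K1.MP
import Vale.Agent.P154.D3.K1.ApxI
import Vale.Agent.P154.D3.K1.Trees

namespace Vale.Agent.P154.D3.K1

open PolyR Cert Data2

theorem hRw : Rw.OK2 Ax where
  c01 := s01
  c11 := s11
  c21 := s21
  c31 := s31
  c12 := s12
  c22 := s22
  c32 := s32
  c13 := s13
  c23 := s23
  c33 := s33
  c24 := s24
  c34 := s34
  c35 := s35
  l01 := by decide +kernel
  l11 := by decide +kernel
  l21 := by decide +kernel
  l31 := by decide +kernel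
  l12 := by decide +kernel
  l22 := by decide +kernel
  l32 := by decide +kernel
  l13 := by decide +kernel
  l23 := by decide +kernel
  l33 := by decide +kernel
  l24 := by decide +kernel
  l34 := by decide +kernel
  l35 := by decide +kernel

theorem hKs : KsOK Ax (12431 / 10000 : ℝ) (-45661 / 10000 : ℝ) (19223 / 2500 : ℝ) 86664496357048320000 3240000 111879 (-410949) 692028 37293 (-136983) 230676 37293 (-136983) 230676 (-136983) 230676 76892 where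
  k01 := by simp only [Ax]; norm_num
  k11 := by simp only [Ax]; norm_num
  k21 := by simp only [Ax]; norm_num
  k31 := by simp only [Ax]; norm_num
  k12 := by simp only [Ax]; norm_num
  k22 := by simp only [Ax]; norm_num
  k32 := by simp only [Ax]; norm_num
  k13 := by simp only [Ax]; norm_num
  k23 := by simp only [Ax]; norm_num
  k33 := by simp only [Ax]; norm_num
  k24 := by simp only [Ax]; norm_num
  k34 := by simp only [Ax]; norm_num
  k35 := by simp only [Ax]; norm_num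

theorem hKz : Kz.OK where
  h10 := by simp only [Kz]; norm_num
  h20 := by simp only [Kz]; norm_num
  h30 := by simp only [Kz]; norm_num
  h40 := by simp only [Kz]; norm_num
  h50 := by simp only [Kz]; norm_num
  h1 := by simp only [Kz]; norm_num
  h3 := by simp only [Kz]; norm_num
  h4 := by simp only [Kz]; norm_num
  h5 := by simp only [Kz]; norm_num

theorem lam_eq : S.lam = (2887 / 5000 : ℝ) := by
  show ((2887 : ℕ) : ℝ) / ((5000 : ℕ) : ℝ) = _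
  norm_num

theorem zeta_eq : S.zeta = (289 / 500 : ℝ) := by
  show ((289 : ℕ) : ℝ) / ((500 : ℕ) : ℝ) = _
  norm_num

theorem hEC (ρ τ r σ : ℝ) (_h0 : 0 ≤ ρ) (_h1 : 0 ≤ r) : ev S.EC ρ τ r σ
    = (S.zd : ℝ) ^ S.Mz * (S.den : ℝ) ^ S.Nm * S.CD * (ErrT S.A S.K S.c1 S.c2 S.c4 (S.zeta * ρ) (S.lam * r)
        + Pq S.c1 S.c2 S.c4 (6 * (S.zeta ^ 2 * ρ ^ 2)) (6 * (S.zeta ^ 3 * (ρ ^ 3 * τ)))
        - Pq S.d1 S.d2 S.d4 (6 * (S.zeta ^ 2 * ρ ^ 2)) (6 * (S.zeta ^ 3 * (ρ ^ 3 * τ)))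
        - S.lam ^ 2 * Pq S.e1 S.e2 S.e4 (6 * r ^ 2) (6 * (r ^ 3 * σ))) := by
  rw [lam_eq, zeta_eq]
  have e1 : |S.c1| = (12431 / 10000 : ℝ) := by
    show |(12431 / 10000 : ℝ)| = _
    rw [abs_of_pos (by norm_num)]
  have e2 : |S.c2| = (45661 / 10000 : ℝ) := by
    show |(-45661 / 10000 : ℝ)| = _
    rw [abs_of_neg (by norm_num)]
    norm_num
  have e4 : |S.c4| = (19223 / 2500 : ℝ) := by
    show |(19223 / 2500 : ℝ)| = _
    rw [abs_of_pos (by norm_num)]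
  unfold ErrT Ab1 Ab2 Ab3 Ab4 Ab5 Pq
  rw [e1, e2, e4]
  simp only [S, EC, Ax, Kz, ev_cons, ev_nil, Tm.val]
  push_cast
  ring

theorem hneg (ρ τ r σ : ℝ) (a1 : 0 ≤ ρ) (a2 : ρ ≤ 1) (a3 : |τ| ≤ 1) (a4 : 0 ≤ r) (a5 : r ≤ 1)
    (a6 : |σ| ≤ 1) (a7 : 0 ≤ 1 - 3 * ρ ^ 2 + 2 * ρ ^ 3 * τ) (a8 : 0 ≤ 1 - 3 * r ^ 2 + 2 * r ^ 3 * σ) :
    evalI S.G ρ τ r σ ≤ 0 :=
  poly_le_zero Nd w (by decide) (by decide) G _ _ _ _ hdeg s00_r s01_r s10_r s11_r ρ τ r σ a1 a2 a3 a4 a5 a6 a7 a8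

theorem hS : S.OK where
  hden := by show (5000 : ℕ) ≠ 0; norm_num
  hzd := by show (500 : ℕ) ≠ 0; norm_num
  hlam0 := by rw [lam_eq]; norm_num
  hzeta0 := by rw [zeta_eq]; norm_num
  hzeta1 := by rw [zeta_eq]; norm_num
  hzl := by rw [zeta_eq, lam_eq]; norm_num
  hCD := by show (0 : ℝ) < 86664496357048320000; norm_num
  hR := hRw
  hKs := hKs
  hA := by
    have e : S.zeta * S.lam = (834343 / 2500000 : ℝ) := by rw [zeta_eq, lam_eq]; norm_num
    rw [e]; exact hAx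
  hK := hKz
  hk2 := by rw [zeta_eq]; show _ ≤ Kz.k2; simp only [Kz]; norm_num
  hsmall := hsmall
  hEC := hEC
  hMP := hMP
  hneg := hneg

/-- The step, in plain numbers. -/
theorem step (x y : Fin 3 → ℝ) (hx : ∑ i, x i = 0) (hy : ∑ i, y i = 0)
    (hx1 : ∀ i, -1 ≤ x i) (hy1 : ∀ i, -1 ≤ y i) :
    (1 / 6) * ∑ g : Equiv.Perm (Fin 3),
        Kp (Pq (12431 / 10000 : ℝ) (-45661 / 10000 : ℝ) (19223 / 2500 : ℝ)) (fun i => (289 / 500 : ℝ) * x i) (fun i => (2887 / 5000 : ℝ) * y (g i))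
      ≤ Pq (22537 / 10000 : ℝ) (-136909 / 10000 : ℝ) (74457 / 2500 : ℝ) (s2 fun i => (289 / 500 : ℝ) * x i) (s3 fun i => (289 / 500 : ℝ) * x i)
        + (2887 / 5000 : ℝ) ^ 2 * Pq (1201 / 1250 : ℝ) (-5271 / 2000 : ℝ) (414 / 125 : ℝ) (s2 y) (s3 y) := by
  have := StepData.one_step hS x y hx hy hx1 hy1
  rw [zeta_eq, lam_eq] at this
  exact this

end Vale.Agent.P154.D3.K1
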